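import Vale.Agent.P181.R2.H553.Defs

set_option autoImplicit false

open scoped TensorProduct

namespace Vale.Agent.P181.H553.Row1

open Vale.Agent.P181 Vale.Agent.P181.H280 Vale.Agent.P181.H179 Vale.Agent.P181.H553

universe u

section Gen

variable {W : Type u} [AddCommGroup W] [Module ℂ W]

lemma symGroup_eq {b : ℕ} {x y : Sym[ℂ]^b W} (h : x + (-1 : ℂ) • y = 0) : x = y := by
  have h1 : x + ((-1 : ℂ) • y + y) = y := by
    rw [← add_assoc, h, zero_add]
  have h2 : (-1 : ℂ) • y + y = 0 := by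
    have h3 : ((-1 : ℂ) + 1) • y = (-1 : ℂ) • y + y := by rw [add_smul, one_smul]
    rw [← h3, neg_add_cancel, zero_smul]
  rw [h2, add_zero] at h1
  exact h1

lemma eq_of_evalPow [Module.Finite ℂ W] {b : ℕ} {x y : Sym[ℂ]^b W}
    (h : ∀ ξ : Module.Dual ℂ W, evalPow b ξ x = evalPow b ξ y) : x = y := by
  apply symGroup_eq
  apply eq_zero_of_evalPow
  intro ξ
  rw [map_add, map_smul, h, smul_eq_mul]
  ring

lemma exists_mulPow {b n : ℕ} (x : Sym[ℂ]^b W) (v : Fin n → W) :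
    ∃ z : Sym[ℂ]^(b + n) W, ∀ ξ : Module.Dual ℂ W,
      evalPow (b + n) ξ z = evalPow b ξ x * ∏ i, ξ (v i) := by
  induction n with
  | zero => exact ⟨x, fun ξ => by simp⟩
  | succ n ih =>
    obtain ⟨z, hz⟩ := ih (fun i => v i.succ)
    refine ⟨mulBy (b + n) (v 0) z, fun ξ => ?_⟩
    have h1 := evalPow_mulBy (b + n) (v 0) ξ z
    rw [hz] at h1
    refine h1.trans ?_
    rw [Fin.prod_univ_succ]
    ring

lemma exists_mul {b n : ℕ} (x : Sym[ℂ]^b W) (y : Sym[ℂ]^n W) :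
    ∃ z : Sym[ℂ]^(b + n) W, ∀ ξ : Module.Dual ℂ W,
      evalPow (b + n) ξ z = evalPow b ξ x * evalPow n ξ y := by
  have hy : y ∈ Submodule.span ℂ
      (Set.range (SymmetricPower.tprod ℂ (ι := Fin n) (M := W))) := by
    rw [SymmetricPower.span_tprod_eq_top]
    trivial
  induction hy using Submodule.span_induction with
  | mem w hw =>
    obtain ⟨v, rfl⟩ := hw
    obtain ⟨z, hz⟩ := exists_mulPow x v
    refine ⟨z, fun ξ => ?_⟩
    rw [hz, evalPow_tprod]
  | zero => exact ⟨0, fun ξ => by rw [map_zero, map_zero, mul_zero]⟩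
  | add y y' _ _ h h' =>
    obtain ⟨z, hz⟩ := h
    obtain ⟨z', hz'⟩ := h'
    exact ⟨z + z', fun ξ => by rw [map_add, map_add, hz, hz', mul_add]⟩
  | smul c y _ h =>
    obtain ⟨z, hz⟩ := h
    refine ⟨c • z, fun ξ => ?_⟩
    rw [map_smul, map_smul, hz, smul_eq_mul, smul_eq_mul]
    ring

lemma exists_linePoly {b : ℕ} (x : Sym[ℂ]^b W) (ξ η : Module.Dual ℂ W) :
    ∃ P : Polynomial ℂ, ∀ s : ℂ, P.eval s = evalPow b (ξ + s • η) x := by
  let L : W →ₗ[ℂ] (Polynomial ℂ) :=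
    (Algebra.linearMap ℂ (Polynomial ℂ)) ∘ₗ ξ + (LinearMap.mulRight ℂ (Polynomial.X : Polynomial ℂ)) ∘ₗ
      ((Algebra.linearMap ℂ (Polynomial ℂ)) ∘ₗ η)
  have hL : ∀ v, L v = Polynomial.C (ξ v) + Polynomial.C (η v) * Polynomial.X := fun v => rfl
  let Q : Sym[ℂ]^b W →ₗ[ℂ] (Polynomial ℂ) :=
    symLift ((MultilinearMap.mkPiAlgebra ℂ (Fin b) (Polynomial ℂ)).compLinearMap (fun _ => L))
      (fun e v => by
        simp only [MultilinearMap.compLinearMap_apply, MultilinearMap.mkPiAlgebra_apply]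
        exact Equiv.prod_comp e (fun i => L (v i)))
  have hQt : ∀ v : Fin b → W, Q (SymmetricPower.tprod ℂ v) = ∏ i, L (v i) := by
    intro v
    rw [symLift_tprod]
    simp only [MultilinearMap.compLinearMap_apply, MultilinearMap.mkPiAlgebra_apply]
  refine ⟨Q x, fun s => ?_⟩
  have h2 : (Polynomial.leval s) ∘ₗ Q = evalPow b (ξ + s • η) := by
    apply sym_hom_ext
    intro v
    rw [LinearMap.comp_apply, hQt, evalPow_tprod, Polynomial.leval_apply,
      Polynomial.eval_prod]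
    apply Finset.prod_congr rfl
    intro i _
    rw [hL, Polynomial.eval_add, Polynomial.eval_mul, Polynomial.eval_C, Polynomial.eval_C,
      Polynomial.eval_X, LinearMap.add_apply,
      LinearMap.smul_apply, smul_eq_mul, mul_comm]
  have h3 := LinearMap.congr_fun h2 x
  exact h3

end Gen

lemma lin_apply (p v : Fin 3 → ℂ) : lin p v = ∑ i, p i * v i := by
  rw [lin, LinearMap.sum_apply]
  rfl

lemma lin_toLin' (p : Pt) (g : Matrix (Fin 3) (Fin 3) ℂ) :
    lin p ∘ₗ Matrix.toLin' g = lin (Matrix.vecMul p g) := by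
  apply LinearMap.ext
  intro v
  rw [LinearMap.comp_apply, lin_apply, lin_apply, Matrix.toLin'_apply]
  exact Matrix.dotProduct_mulVec p g v

lemma exists_lin (ξ : Module.Dual ℂ (Fin 3 → ℂ)) : ∃ p : Pt, lin p = ξ := by
  refine ⟨fun i => ξ (Pi.single i 1), ?_⟩
  apply LinearMap.pi_ext'
  intro i
  apply LinearMap.ext_ring
  rw [LinearMap.comp_apply, LinearMap.comp_apply, lin_apply]
  simp [Pi.single_apply]

lemma ev_add (a : ℕ) (c c' : Meas) : ev a (c + c') = ev a c + ev a c' := by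
  rw [ev, Finsupp.sum_add_index']
  · rfl
  · intro p
    rw [zero_smul]
  · intro p r r'
    rw [add_smul]

lemma ev_smul (a : ℕ) (τ : ℂ) (c : Meas) : ev a (τ • c) = τ • ev a c := by
  rw [ev, Finsupp.sum_smul_index', ev, Finsupp.smul_sum]
  · apply Finsupp.sum_congr
    intro p _
    rw [smul_smul, smul_eq_mul]
  · intro p
    rw [zero_smul]

lemma exists_ev (a : ℕ) (ξ : Module.Dual ℂ (Sym[ℂ]^a (Fin 3 → ℂ))) : ∃ c : Meas, ev a c = ξ := by
  have h1 : Submodule.span ℂ (Set.range (fun p : Pt => evalPow a (lin p))) = ⊤ := by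
    apply span_eq_top_of_separates
    intro x hx
    apply eq_zero_of_evalPow
    intro η
    obtain ⟨p, rfl⟩ := exists_lin η
    exact hx _ ⟨p, rfl⟩
  have h2 : ξ ∈ Submodule.span ℂ (Set.range (fun p : Pt => evalPow a (lin p))) := by
    rw [h1]
    trivial
  obtain ⟨c, hc⟩ := Finsupp.mem_span_range_iff_exists_finsupp.1 h2
  exact ⟨c, hc⟩

lemma ev_map (a : ℕ) (g : Matrix (Fin 3) (Fin 3) ℂ) (c : Meas) :
    ev a (Finsupp.mapDomain (fun p => Matrix.vecMul p g) c) =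
      ev a c ∘ₗ symMap a (Matrix.toLin' g) := by
  rw [ev, Finsupp.sum_mapDomain_index, ev, Finsupp.sum, Finsupp.sum]
  · apply LinearMap.ext
    intro y
    rw [LinearMap.comp_apply, LinearMap.sum_apply, LinearMap.sum_apply]
    apply Finset.sum_congr rfl
    intro p _
    rw [LinearMap.smul_apply, LinearMap.smul_apply, ← lin_toLin', ← evalPow_symMap]
    rfl
  · intro p
    rw [zero_smul]
  · intro p r r'
    rw [add_smul]

lemma evalPow_plethAct {a d : ℕ} (x : Pleth d a 3) (g : Matrix (Fin 3) (Fin 3) ℂ) (c : Meas) :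
    evalPow d (ev a c) (plethAct d a 3 g x) =
      evalPow d (ev a (Finsupp.mapDomain (fun p => Matrix.vecMul p g) c)) x := by
  rw [ev_map, ← evalPow_symMap]
  rfl

end Vale.Agent.P181.H553.Row1

namespace Vale.Agent.P181.H553

open Vale.Agent.P181 Vale.Agent.P181.H280 Vale.Agent.P181.H179 Vale.Agent.P181.H553.Row1

/-- ROW 1a. A vector with the right function is a highest weight vector. -/
theorem mem_hwSpace_of {a d : ℕ} {lam : Fin 3 → ℕ} (x : Pleth d a 3)
    (h : ∀ g : Matrix (Fin 3) (Fin 3) ℂ, IsBorel g → ∀ c : Meas,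
      evalPow d (ev a (Finsupp.mapDomain (fun p => Matrix.vecMul p g) c)) x =
        (∏ i, g i i ^ lam i) * evalPow d (ev a c) x) :
    x ∈ hwSpace lam (plethAct d a 3) := by
  intro g hg
  refine eq_of_evalPow (W := Sym[ℂ]^a (Fin 3 → ℂ)) (b := d) (fun ξ => ?_)
  obtain ⟨c, rfl⟩ := exists_ev a ξ
  rw [evalPow_plethAct, h g hg c]
  exact (map_smul (evalPow d (ev a c)) _ _).symm

/-- ROW 1b. Linearly independent functions give a lower bound of the multiplicity. -/
theorem card_le {a d : ℕ} {lam : Fin 3 → ℕ} {ι : Type} [Fintype ι] (f : ι → Meas → ℂ)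
    (hf : ∀ i, HWF a d lam (f i)) (hind : LinearIndependent ℂ f) :
    Fintype.card ι ≤ plethMult d a 3 lam := by
  choose x hx hxf using hf
  let F : (hwSpace lam (plethAct d a 3)) →ₗ[ℂ] (Meas → ℂ) :=
    (LinearMap.pi (fun c => evalPow d (ev a c))) ∘ₗ (hwSpace lam (plethAct d a 3)).subtype
  have h1 : (fun i => F ⟨x i, hx i⟩) = f := by
    funext i c
    exact hxf i c
  have h2 : LinearIndependent ℂ (fun i => (⟨x i, hx i⟩ : hwSpace lam (plethAct d a 3))) := by
    apply LinearIndependent.of_comp F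
    rw [← h1] at hind
    exact hind
  have hN : Module.Finite ℂ (Pleth d a 3) :=
    inferInstanceAs (Module.Finite ℂ (Sym[ℂ]^d (Sym[ℂ]^a (Fin 3 → ℂ))))
  let _ := Module.addCommMonoidToAddCommGroup ℂ (M := Pleth d a 3)
  exact h2.fintype_card_le_finrank

/-- ROW 1c. Products. -/
theorem HWF.mul {a d₁ d₂ : ℕ} {l₁ l₂ : Fin 3 → ℕ} {f₁ f₂ : Meas → ℂ} (h₁ : HWF a d₁ l₁ f₁)
    (h₂ : HWF a d₂ l₂ f₂) : HWF a (d₁ + d₂) (l₁ + l₂) (f₁ * f₂) := by
  obtain ⟨x, hx, hxf⟩ := h₁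
  obtain ⟨y, hy, hyf⟩ := h₂
  obtain ⟨z, hz⟩ := exists_mul (W := Sym[ℂ]^a (Fin 3 → ℂ)) (b := d₁) (n := d₂) x y
  have hxg : ∀ g : Matrix (Fin 3) (Fin 3) ℂ, IsBorel g → ∀ c : Meas,
      evalPow d₁ (ev a (Finsupp.mapDomain (fun p => Matrix.vecMul p g) c)) x =
        (∏ i, g i i ^ l₁ i) * evalPow d₁ (ev a c) x := by
    intro g hg c
    rw [← evalPow_plethAct, hx g hg]
    exact map_smul (evalPow d₁ (ev a c)) _ _
  have hyg : ∀ g : Matrix (Fin 3) (Fin 3) ℂ, IsBorel g → ∀ c : Meas,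
      evalPow d₂ (ev a (Finsupp.mapDomain (fun p => Matrix.vecMul p g) c)) y =
        (∏ i, g i i ^ l₂ i) * evalPow d₂ (ev a c) y := by
    intro g hg c
    rw [← evalPow_plethAct, hy g hg]
    exact map_smul (evalPow d₂ (ev a c)) _ _
  refine ⟨z, ?_, ?_⟩
  · apply mem_hwSpace_of
    intro g hg c
    rw [hz, hz, hxg g hg c, hyg g hg c]
    simp only [Pi.add_apply, pow_add, Finset.prod_mul_distrib]
    ring
  · intro c
    rw [hz, hxf, hyf]
    rfl

/-- ROW 1d. Along a line the function is a polynomial. -/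
theorem HWF.line {a d : ℕ} {lam : Fin 3 → ℕ} {f : Meas → ℂ} (h : HWF a d lam f) (c c' : Meas) :
    ∃ P : Polynomial ℂ, ∀ τ : ℂ, f (c + τ • c') = P.eval τ := by
  obtain ⟨x, _, hxf⟩ := h
  obtain ⟨P, hP⟩ := exists_linePoly (W := Sym[ℂ]^a (Fin 3 → ℂ)) (b := d) x (ev a c) (ev a c')
  refine ⟨P, fun τ => ?_⟩
  rw [hP, ← hxf, ev_add, ev_smul]

end Vale.Agent.P181.H553
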